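import Vale.Agent.P183L.Tab

namespace Vale.Agent.P183L

lemma chk2 : all2 0 64 ok2 = true := by decide +kernel

end Vale.Agent.P183L
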