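import Vale.Agent.P183L.Tab

namespace Vale.Agent.P183L

lemma chk3 : ∀ k < 7, all2 0 64 (ok3 k) = true := by decide +kernel

lemma chk4 : ∀ a < 7, ∀ b < 7, le7 a b = true →
    reach (r1 b) (r2 b) (c3 a b) 1 0 (r1 a) (r2 a) = true := by decide +kernel

lemma chk5 : ∀ a < 7, ∀ b < 7,
    cls (run (r1 a) (r2 a) 20 (c4 a b / 8) (r1 b) (r2 b)).1
      (run (r1 a) (r2 a) 20 (c4 a b / 8) (r1 b) (r2 b)).2 = jo a b ∧ jo a b < 7 ∧
      le7 a (jo a b) = true ∧ le7 b (jo a b) = true := by decide +kernel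

lemma chk6 : ∀ k < 7, ∀ a < 64, le7 (cls (fm a a) 1) k = true → a = 0 ∨ le7 (cls a 0) k = true := by
  decide +kernel

lemma chk7 : ∀ b < 64, ∃ a < 64, fm a a = b := by decide +kernel

lemma chk8 : ∀ k < 7, cls (r1 k) (r2 k) = k ∧ r1 k < 64 ∧ r2 k < 64 ∧ le7 (cls 1 0) k = true ∧
    le7 (cls 0 0) k = false ∧ le7 k k = true := by decide +kernel

lemma chk9 : ∀ a < 7, ∀ b < 7, ∀ c < 7, le7 a b = true → le7 b c = true → le7 a c = true := by
  decide +kernel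

end Vale.Agent.P183L
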