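import Vale.Agent.P183L.Chk1
import Vale.Agent.P183L.Chk2
import Vale.Agent.P183L.Chk3

namespace Vale.Agent.P183L

structure Good (O J : ℕ → ℕ → Prop) : Prop where
  e1 : O 1 0
  hu : ∀ a c, O a c → O (a ^^^ c) c
  hw : ∀ a c, O a c → O c a
  hj : ∀ p q a c, J p q → O a c → O (a ^^^ fm (fm a q ^^^ fm c p) p) (c ^^^ fm (fm a q ^^^ fm c p) q)
  hJ : ∀ p q, O p q → J p q
  lt : ∀ a c, O a c → a < 64 ∧ c < 64 ∧ a + c ≠ 0

variable {O J : ℕ → ℕ → Prop}

lemma Good.hh (h : Good O J) (d : ℕ) {a c : ℕ} (ha : O a c) : O (h1 d a c) (h2 d a c) := by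
  rcases d with _ | _ | _ | _ | _ | d
  · exact ha
  · exact h.hu _ _ ha
  · exact h.hw _ _ ha
  · exact h.hu _ _ (h.hw _ _ ha)
  · exact h.hw _ _ (h.hu _ _ ha)
  · exact h.hu _ _ (h.hw _ _ (h.hu _ _ ha))

lemma Good.run (h : Good O J) {p q : ℕ} (hJ : J p q) (f : ℕ) :
    ∀ code a c, O a c → O (run p q f code a c).1 (run p q f code a c).2 := by
  induction f with
  | zero => exact fun _ _ _ ha => ha
  | succ f ih =>
    intro code a c ha
    simp only [P183L.run, frc_eq]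
    cases Nat.beq code 0
    · exact ih _ _ _ (h.hj _ _ _ _ hJ (h.hh _ ha))
    · exact ha

lemma Good.reach (h : Good O J) {p q code a c x y : ℕ} (hJ : J p q) (ha : O a c)
    (hr : reach p q code a c x y = true) : O x y := by
  simp only [P183L.reach, frc_eq] at hr
  have h0 := h.run hJ 20 (code / 8) a c ha
  generalize P183L.run p q 20 (code / 8) a c = r at hr h0
  obtain ⟨a', c'⟩ := r
  simp only [Bool.and_eq_true, Nat.beq_eq] at hr
  rw [← hr.1, ← hr.2]
  exact h.hh _ h0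

lemma le7_lt {a k : ℕ} (hk : k < 7) (ha : a < 16) (h : le7 a k = true) : a < 7 := by
  revert a k
  have : ∀ k < 7, ∀ a < 16, le7 a k = true → a < 7 := by decide +kernel
  exact fun {a k} hk ha h => this k hk a ha h

lemma cls_lt (a c : ℕ) : cls a c < 16 := Nat.mod_lt _ (by norm_num)

lemma Good.down (h : Good O J) {k : ℕ} (hk : k < 7) (hJ : J (r1 k) (r2 k)) {a c : ℕ} (ha : a < 64)
    (hc : c < 64) (hl : le7 (cls a c) k = true) : O a c := by
  have h7 := le7_lt hk (cls_lt a c) hl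
  have h1 := h.reach hJ h.e1 (chk4 _ h7 k hk hl)
  have h2 := all2_spec chk2 (Nat.zero_le a) (by omega) hc
  simp only [ok2, Bool.or_eq_true, Nat.beq_eq] at h2
  rcases h2 with h2 | h2
  · obtain ⟨rfl, rfl⟩ : a = 0 ∧ c = 0 := by omega
    rw [(chk8 k hk).2.2.2.2.1] at hl
    exact absurd hl (by simp)
  · exact h.reach (h.hJ _ _ h1) h.e1 h2

lemma Good.up (h : Good O J) {a c : ℕ} (ha : O a c) :
    cls a c < 7 ∧ O (r1 (cls a c)) (r2 (cls a c)) := by
  obtain ⟨l1, l2, l3⟩ := h.lt a c ha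
  have h2 := all2_spec chk1 (Nat.zero_le a) (by omega) l2
  simp only [ok1, Bool.or_eq_true, Bool.and_eq_true, Nat.beq_eq, Nat.blt_eq] at h2
  rcases h2 with h2 | h2
  · exact absurd h2 l3
  · exact ⟨h2.2, h.reach (h.hJ _ _ ha) h.e1 h2.1⟩

lemma Good.classify (h : Good O J) :
    ∃ k < 7, ∀ a c, O a c ↔ a < 64 ∧ c < 64 ∧ le7 (cls a c) k = true := by
  have key : ∀ n ≤ 7, ∃ k < 7, O (r1 k) (r2 k) ∧
      ∀ b < n, O (r1 b) (r2 b) → le7 b k = true := by
    intro n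
    induction n with
    | zero => exact fun _ => ⟨_, (h.up h.e1).1, (h.up h.e1).2, fun b hb => absurd hb (by omega)⟩
    | succ n ih =>
      intro hn
      obtain ⟨k, hk, h1, h2⟩ := ih (by omega)
      by_cases hO : O (r1 n) (r2 n)
      · obtain ⟨e, l, l1, l2⟩ := chk5 k hk n (by omega)
        have h3 := (h.up (h.run (h.hJ _ _ h1) 20 (c4 k n / 8) _ _ hO)).2
        rw [e] at h3
        refine ⟨jo k n, l, h3, fun b hb hb' => ?_⟩
        rcases Nat.lt_succ_iff_lt_or_eq.1 hb with hb | rfl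
        · exact chk9 b (by omega) k hk _ l (h2 b hb hb') l1
        · exact l2
      · refine ⟨k, hk, h1, fun b hb hb' => ?_⟩
        rcases Nat.lt_succ_iff_lt_or_eq.1 hb with hb | rfl
        · exact h2 b hb hb'
        · exact absurd hb' hO
  obtain ⟨k, hk, h1, h2⟩ := key 7 le_rfl
  exact ⟨k, hk, fun a c => ⟨fun ha => ⟨(h.lt a c ha).1, (h.lt a c ha).2.1,
    h2 _ (h.up ha).1 (h.up ha).2⟩, fun ha => h.down hk (h.hJ _ _ h1) ha.1 ha.2.1 ha.2.2⟩⟩

end Vale.Agent.P183L
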