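import Vale.Agent.P183L.Comb
import Vale.Agent.P183L.Fld

namespace Vale.Agent.P183L

open F

abbrev G : Type := Matrix.SpecialLinearGroup (Fin 2) F

def act (g : G) (v : F × F) : F × F :=
  (g.1 0 0 * v.1 + g.1 0 1 * v.2, g.1 1 0 * v.1 + g.1 1 1 * v.2)

lemma act_one (v : F × F) : act 1 v = v := by simp [act]

lemma act_mul (g h : G) (v : F × F) : act (g * h) v = act g (act h v) := by
  simp only [act, Matrix.SpecialLinearGroup.coe_mul, Matrix.mul_apply, Fin.sum_univ_two]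
  refine Prod.ext ?_ ?_ <;> simp only <;> ring

lemma det_eq (g : G) : g.1 0 0 * g.1 1 1 - g.1 0 1 * g.1 1 0 = 1 := by
  rw [← Matrix.det_fin_two]; exact g.2

def jm (v : F × F) : G := ⟨!![1 + v.1 * v.2, v.1 * v.1; v.2 * v.2, 1 + v.1 * v.2], by
  rw [Matrix.det_fin_two_of]; linear_combination (v.1 * v.2) * two⟩

lemma G_ext {g h : G} (h1 : act g (1, 0) = act h (1, 0)) (h2 : act g (0, 1) = act h (0, 1)) :
    g = h := by
  simp only [act, mul_one, mul_zero, add_zero, zero_add, Prod.mk.injEq] at h1 h2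
  refine Matrix.SpecialLinearGroup.ext _ _ fun i j => ?_
  fin_cases i <;> fin_cases j
  exacts [h1.1, h2.1, h1.2, h2.2]

lemma act_jm (v x : F × F) : act (jm v) x =
    (x.1 + (x.1 * v.2 + x.2 * v.1) * v.1, x.2 + (x.1 * v.2 + x.2 * v.1) * v.2) := by
  refine Prod.ext ?_ ?_ <;> simp [act, jm] <;> ring

lemma jm_jm (v x : F × F) : act (jm v) (act (jm v) x) = x := by
  simp only [act_jm]
  refine Prod.ext ?_ ?_
  · simp only
    linear_combination ((x.1 * v.2 + x.2 * v.1) * v.1 +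
      (x.1 * v.2 + x.2 * v.1) * v.1 * v.2 * v.1) * two
  · simp only
    linear_combination ((x.1 * v.2 + x.2 * v.1) * v.2 +
      (x.1 * v.2 + x.2 * v.1) * v.1 * v.2 * v.2) * two

lemma act_u (x : F × F) : act (jm (1, 0)) x = (x.1 + x.2, x.2) := by simp [act_jm]

lemma act_w (x : F × F) : act (jm (1, 1)) x = (x.2, x.1) := by
  simp only [act_jm, mul_one]
  refine Prod.ext ?_ ?_
  · simp only; linear_combination x.1 * two
  · simp only; linear_combination x.2 * two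

lemma conj_jm (g : G) : jm (act g (1, 0)) = g * jm (1, 0) * g⁻¹ := by
  rw [eq_mul_inv_iff_mul_eq]
  have hd := det_eq g
  refine G_ext ?_ ?_ <;> rw [act_mul, act_mul, act_u, act_jm] <;> simp only [act] <;>
    refine Prod.ext ?_ ?_ <;> simp only
  · linear_combination (g.1 0 0 * g.1 1 0 * g.1 0 0) * two
  · linear_combination (g.1 0 0 * g.1 1 0 * g.1 1 0) * two
  · linear_combination (g.1 0 0) * hd + (g.1 0 1 * g.1 1 0 * g.1 0 0) * two
  · linear_combination (g.1 1 0) * hd + (g.1 0 1 * g.1 1 0 * g.1 1 0) * two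

def Orb (K : Subgroup G) (x : F × F) : Prop := ∃ g ∈ K, act g (1, 0) = x

def Over (K : Subgroup G) : Prop := jm (1, 0) ∈ K ∧ jm (1, 1) ∈ K

lemma Orb.act {K : Subgroup G} {x : F × F} (h : Orb K x) {g : G} (hg : g ∈ K) :
    Orb K (act g x) := by
  obtain ⟨k, hk, rfl⟩ := h
  exact ⟨g * k, K.mul_mem hg hk, act_mul _ _ _⟩

lemma Orb.jm {K : Subgroup G} (hK : Over K) {x : F × F} (h : Orb K x) : jm x ∈ K := by
  obtain ⟨k, hk, rfl⟩ := h
  rw [conj_jm]
  exact K.mul_mem (K.mul_mem hk hK.1) (K.inv_mem hk)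

lemma good {K : Subgroup G} (hK : Over K) :
    Good (fun a c => ∃ x, Orb K x ∧ dec x.1 = a ∧ dec x.2 = c)
      fun a c => ∃ x, jm x ∈ K ∧ dec x.1 = a ∧ dec x.2 = c := by
  refine ⟨⟨(1, 0), ⟨1, K.one_mem, act_one _⟩, rfl, rfl⟩, ?_, ?_, ?_, ?_, ?_⟩
  · rintro _ _ ⟨x, hx, rfl, rfl⟩
    exact ⟨_, hx.act hK.1, by rw [act_u, dec_add], by rw [act_u]⟩
  · rintro _ _ ⟨x, hx, rfl, rfl⟩
    exact ⟨_, hx.act hK.2, by rw [act_w], by rw [act_w]⟩
  · rintro _ _ _ _ ⟨v, hv, rfl, rfl⟩ ⟨x, hx, rfl, rfl⟩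
    exact ⟨_, hx.act hv, by simp only [act_jm, dec_add, dec_mul],
      by simp only [act_jm, dec_add, dec_mul]⟩
  · rintro _ _ ⟨x, hx, rfl, rfl⟩
    exact ⟨x, hx.jm hK, rfl, rfl⟩
  · rintro _ _ ⟨x, ⟨g, -, rfl⟩, rfl, rfl⟩
    refine ⟨dec_lt _, dec_lt _, fun h => ?_⟩
    have h1 : (act g (1, 0)).1 = 0 := dec_inj (by rw [dec_zero]; omega)
    have h2 : (act g (1, 0)).2 = 0 := dec_inj (by rw [dec_zero]; omega)
    simp only [act, mul_one, mul_zero, add_zero] at h1 h2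
    have hd := det_eq g
    rw [h1, h2, zero_mul, mul_zero, sub_zero] at hd
    exact absurd (congrArg dec hd) (by decide)

def V (k : ℕ) (x : F × F) : Prop := le7 (cls (dec x.1) (dec x.2)) k = true

lemma orb_class {K : Subgroup G} (hK : Over K) : ∃ k < 7, ∀ x, Orb K x ↔ V k x := by
  obtain ⟨k, hk, h⟩ := (good hK).classify
  refine ⟨k, hk, fun x => ⟨fun hx => ((h _ _).1 ⟨x, hx, rfl, rfl⟩).2.2, fun hx => ?_⟩⟩
  obtain ⟨y, hy, e1, e2⟩ := (h _ _).2 ⟨dec_lt x.1, dec_lt x.2, hx⟩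
  rwa [show y = x from Prod.ext (dec_inj e1) (dec_inj e2)] at hy

lemma le_of_orb {K K' : Subgroup G} (hK : Over K) (hK' : Over K')
    (h : ∀ x, Orb K x → Orb K' x) : K ≤ K' := by
  intro g hg
  obtain ⟨k, hk, hV⟩ := orb_class hK'
  obtain ⟨g0, hg0, e0⟩ := h _ ⟨g, hg, rfl⟩
  have e1 : act (g0⁻¹ * g) (1, 0) = (1, 0) := by
    rw [act_mul, ← e0, ← act_mul, inv_mul_cancel, act_one]
  have o2 : Orb K' (act (g0⁻¹ * g) (0, 1)) := by
    rw [act_mul]
    refine (h _ ⟨g * jm (1, 1), K.mul_mem hg hK.2, ?_⟩).act (K'.inv_mem hg0)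
    rw [act_mul, act_w]
  suffices hs : g0⁻¹ * g ∈ K' by simpa using K'.mul_mem hg0 hs
  generalize g0⁻¹ * g = t at e1 o2
  have hd := det_eq t
  have e1' := e1
  simp only [act, mul_one, mul_zero, add_zero, Prod.mk.injEq] at e1'
  rw [e1'.1, e1'.2, one_mul, mul_zero, sub_zero] at hd
  obtain ⟨a, ha, hb⟩ := chk7 _ (dec_lt (t.1 0 1))
  have hb' : enc a * enc a = t.1 0 1 := dec_inj (by rw [dec_mul, dec_enc a ha, hb])
  have e2 : act t (0, 1) = (enc a * enc a, 1) := by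
    simp only [act, mul_one, mul_zero, zero_add, hd, hb']
  have e3 : t = jm (enc a, 0) := by
    refine G_ext ?_ ?_
    · rw [e1, act_jm]; simp
    · rw [e2, act_jm]; simp
  rw [e2, hV] at o2
  simp only [V, dec_mul, dec_enc a ha, dec_one] at o2
  rcases chk6 k hk a ha o2 with rfl | h6
  · have : t = 1 := by
      refine G_ext (by rw [e1, act_one]) ?_
      rw [e2, act_one, show enc 0 = 0 from dec_inj (dec_enc 0 (by norm_num)), mul_zero]
    rw [this]; exact K'.one_mem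
  · rw [e3]
    refine Orb.jm hK' ((hV _).2 ?_)
    simpa only [V, dec_enc a ha, dec_zero] using h6

def St (k : ℕ) : Subgroup G where
  carrier := {g | ∀ x, V k x ↔ V k (act g x)}
  one_mem' := fun x => by rw [act_one]
  mul_mem' := fun {g h} hg hh x => by rw [act_mul]; exact (hh x).trans (hg _)
  inv_mem' := fun {g} hg x => by
    rw [hg (act g⁻¹ x), ← act_mul, mul_inv_cancel, act_one]

lemma jm_mem {k : ℕ} {v : F × F} (h : ∀ x, V k x → V k (act (jm v) x)) : jm v ∈ St k :=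
  fun x => ⟨h x, fun hx => by have := h _ hx; rwa [jm_jm] at this⟩

lemma st_gen {k : ℕ} (hk : k < 7) : Over (St k) ∧ jm (enc (r1 k), enc (r2 k)) ∈ St k := by
  have key : ∀ x, V k x → V k (act (jm (1, 0)) x) ∧ V k (act (jm (1, 1)) x) ∧
      V k (act (jm (enc (r1 k), enc (r2 k))) x) := fun x hx => by
    have h := all2_spec (chk3 k hk) (Nat.zero_le (dec x.1)) (by have := dec_lt x.1; omega)
      (dec_lt x.2)
    simp only [V] at hx
    simp only [ok3, hx, Bool.not_true, Bool.false_or, Bool.and_eq_true, frc_eq] at h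
    refine ⟨?_, ?_, ?_⟩
    · simpa only [V, act_u, dec_add] using h.1.1
    · simpa only [V, act_w] using h.1.2
    · simpa only [V, act_jm, dec_add, dec_mul, dec_enc _ (chk8 k hk).2.1,
        dec_enc _ (chk8 k hk).2.2.1] using h.2
  exact ⟨⟨jm_mem fun x hx => (key x hx).1, jm_mem fun x hx => (key x hx).2.1⟩,
    jm_mem fun x hx => (key x hx).2.2⟩

lemma orb_st {k : ℕ} (hk : k < 7) (x : F × F) : Orb (St k) x ↔ V k x := by
  constructor
  · rintro ⟨g, hg, rfl⟩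
    exact (hg _).1 (chk8 k hk).2.2.2.1
  · intro hx
    obtain ⟨y, hy, e1, e2⟩ := (good (st_gen hk).1).down hk
      ⟨_, (st_gen hk).2, dec_enc _ (chk8 k hk).2.1, dec_enc _ (chk8 k hk).2.2.1⟩
      (dec_lt x.1) (dec_lt x.2) hx
    rwa [show y = x from Prod.ext (dec_inj e1) (dec_inj e2)] at hy

lemma st_le_iff {k k' : ℕ} (hk : k < 7) (hk' : k' < 7) : St k ≤ St k' ↔ le7 k k' = true := by
  constructor
  · intro h
    have h1 : V k (enc (r1 k), enc (r2 k)) := by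
      simp only [V, dec_enc _ (chk8 k hk).2.1, dec_enc _ (chk8 k hk).2.2.1, (chk8 k hk).1]
      exact (chk8 k hk).2.2.2.2.2
    obtain ⟨g, hg, e⟩ := (orb_st hk _).2 h1
    have h2 := (orb_st hk' _).1 ⟨g, h hg, e⟩
    simpa only [V, dec_enc _ (chk8 k hk).2.1, dec_enc _ (chk8 k hk).2.2.1, (chk8 k hk).1] using h2
  · intro h
    refine le_of_orb (st_gen hk).1 (st_gen hk').1 fun x hx => (orb_st hk' x).2 ?_
    have h1 := (orb_st hk x).1 hx
    exact chk9 _ (le7_lt hk (cls_lt _ _) h1) k hk k' hk' h1 h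

lemma eq_st {K : Subgroup G} (hK : Over K) : ∃ k < 7, K = St k := by
  obtain ⟨k, hk, h⟩ := orb_class hK
  exact ⟨k, hk, le_antisymm
    (le_of_orb hK (st_gen hk).1 fun x hx => (orb_st hk x).2 ((h x).1 hx))
    (le_of_orb (st_gen hk).1 hK fun x hx => (h x).2 ((orb_st hk x).1 hx))⟩

end Vale.Agent.P183L
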