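import Mathlib

namespace Vale.Agent.P183L

/-- the seven element lattice `L7`: the grid `2 × 3` with one more element `none`, which lies
strictly between the bottom and the top and is incomparable to the four other middle elements -/
def leL7 : Option (Fin 2 × Fin 3) → Option (Fin 2 × Fin 3) → Prop
  | some p, some q => p.1 ≤ q.1 ∧ p.2 ≤ q.2
  | some p, none => p = (0, 0)
  | none, some q => q = (1, 2)
  | none, none => True

end Vale.Agent.P183L
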