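import Vale.Agent.P183L.Grp
import Vale.Agent.P183L.Stmt
import Vale.Agent.P183.Basic

namespace Vale.Agent.P183L

open Vale.Agent.P183

def ix : Option (Fin 2 × Fin 3) → ℕ
  | some p => if p.1 = 0 then (if p.2 = 2 then 3 else p.2.val) else 2 * p.2.val + 2
  | none => 5

instance leL7_dec : DecidableRel leL7 := fun a b => by
  cases a <;> cases b <;> unfold leL7 <;> infer_instance

lemma ix_lt : ∀ a, ix a < 7 := by decide +kernel
lemma ix_le : ∀ a b, leL7 a b ↔ le7 (ix a) (ix b) = true := by decide +kernel
lemma ix_surj : ∀ k < 7, ∃ a, ix a = k := by decide +kernel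
lemma leL7_anti : ∀ a b, leL7 a b → leL7 b a → a = b := by decide +kernel
lemma leL7_base : ∀ a, leL7 (some (0, 0)) a := by decide +kernel

theorem rep_L7 : Rep (Option (Fin 2 × Fin 3)) leL7 := by
  have : Finite G := Finite.of_injective (fun g : G => g.1) Subtype.val_injective
  refine Cl.rep (X := G) (ρ := fun a => QuotientGroup.leftRel (St (ix a))) (a0 := some (0, 0))
    ⟨fun a b => ?_, leL7_anti, leL7_base, fun θ hb hθ => ?_⟩
  · rw [ix_le, ← st_le_iff (ix_lt a) (ix_lt b)]
    simp only [QuotientGroup.leftRel_apply]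
    exact ⟨fun h s t hst => h hst, fun h g hg => by simpa using h 1 g (by simpa using hg)⟩
  · have hl : ∀ g s t, θ s t → θ (g * s) (g * t) := fun g =>
      hθ (fun s => g * s) fun a s t hst => by
        simp only [QuotientGroup.leftRel_apply] at hst ⊢
        simpa [mul_assoc] using hst
    let K : Subgroup G :=
      { carrier := {g | θ 1 g}
        one_mem' := θ.refl _
        mul_mem' := fun {g h} hg hh => θ.trans hg (by simpa using hl g _ _ hh)
        inv_mem' := fun {g} hg => θ.symm (by simpa using hl g⁻¹ _ _ hg) }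
    have hK : Over K := by
      have h0 := (st_gen (ix_lt (some (0, 0)))).1
      exact ⟨hb _ _ (by simpa only [QuotientGroup.leftRel_apply, inv_one, one_mul] using h0.1),
        hb _ _ (by simpa only [QuotientGroup.leftRel_apply, inv_one, one_mul] using h0.2)⟩
    obtain ⟨k, hk, e⟩ := eq_st hK
    obtain ⟨a, rfl⟩ := ix_surj k hk
    refine ⟨a, ?_⟩
    ext s t
    rw [QuotientGroup.leftRel_apply, ← e]
    exact ⟨fun h => show θ 1 _ by simpa using hl s⁻¹ _ _ h,
      fun h => by simpa using hl s _ _ (show θ 1 _ from h)⟩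

end Vale.Agent.P183L
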